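import Vale.Agent.Lib.P154.PChain.Tail
import Vale.Agent.Lib.P154.PChain.BB.H

set_option linter.all false

namespace Vale.Agent.Lib.P154.PChain.BB

open Vale.Agent.Lib.P154 Vale.Agent.Lib.P154.Neg Vale.Agent.Lib.P154.Chain

/-- the mean of the offspring -/
noncomputable def ds : ℝ := 40363 / 10000

/-- the size of the eigenvalue -/
noncomputable def ts : ℝ := 997 / 2000

theorem law_ok : LawOK (poissonLaw ds) g wp := by
  have h := lawOK_poisson (g := g) (wp := wp) (a := 40363) (b := 10000) (Un := 56616473845967) (Ud := 1000000000000) (by decide +kernel) (by decide +kernel) (by decide +kernel)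
    (by decide +kernel) (by decide +kernel) (by decide +kernel) (by decide +kernel) (by decide +kernel) (by decide +kernel)
  have e : (((40363 : ℕ) : ℝ) / ((10000 : ℕ) : ℝ)) = ds := by
    unfold ds
    norm_num
  rw [e] at h
  exact h

theorem inv_0 : PInv (poissonLaw ds) g l0 0 S0.cp0 := by
  rw [S0.start_ok]
  exact pinv_start S0.check_ok

theorem inv_r0_0 : PInv (poissonLaw ds) g l0 3 S0.rc0 := by
  have h := inv_runP (n := 0) (k := 3) S0.check_ok law_ok inv_0
  rw [S0.run_ok0] at h
  exact h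

theorem inv_r0_1 : PInv (poissonLaw ds) g l0 5 S0.rc1 := by
  have h := inv_runP (n := 3) (k := 2) S0.check_ok law_ok inv_r0_0
  rw [S0.run_ok1] at h
  exact h

theorem inv_s1 : PInv (poissonLaw ds) g l0 5 S1.cp0 := by
  have h : S1.cp0 = S0.rc1 := by
    decide +kernel
  rw [h]
  exact inv_r0_1

theorem inv_r1_0 : PInv (poissonLaw ds) g l1 6 S1.rc0 := by
  have h := inv_run1P (n := 5) S1.check_ok law_ok inv_s1
  rw [S1.run_ok0] at h
  exact h

theorem inv_s2 : PInv (poissonLaw ds) g l1 6 S2.cp0 := by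
  have h : S2.cp0 = S1.rc0 := by
    decide +kernel
  rw [h]
  exact inv_r1_0

theorem inv_r2_0 : PInv (poissonLaw ds) g l1 8 S2.rc0 := by
  have h := inv_runP (n := 6) (k := 2) S2.check_ok law_ok inv_s2
  rw [S2.run_ok0] at h
  exact h

theorem inv_r2_1 : PInv (poissonLaw ds) g l1 10 S2.rc1 := by
  have h := inv_runP (n := 8) (k := 2) S2.check_ok law_ok inv_r2_0
  rw [S2.run_ok1] at h
  exact h

theorem inv_r2_2 : PInv (poissonLaw ds) g l1 12 S2.rc2 := by
  have h := inv_runP (n := 10) (k := 2) S2.check_ok law_ok inv_r2_1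
  rw [S2.run_ok2] at h
  exact h

theorem inv_r2_3 : PInv (poissonLaw ds) g l1 14 S2.rc3 := by
  have h := inv_runP (n := 12) (k := 2) S2.check_ok law_ok inv_r2_2
  rw [S2.run_ok3] at h
  exact h

theorem inv_s3 : PInv (poissonLaw ds) g l1 14 S3.cp0 := by
  have h : S3.cp0 = S2.rc3 := by
    decide +kernel
  rw [h]
  exact inv_r2_3

theorem inv_r3_0 : PInv (poissonLaw ds) g l2 15 S3.rc0 := by
  have h := inv_run1P (n := 14) S3.check_ok law_ok inv_s3
  rw [S3.run_ok0] at h
  exact h

theorem inv_s4 : PInv (poissonLaw ds) g l2 15 S4.cp0 := by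
  have h : S4.cp0 = S3.rc0 := by
    decide +kernel
  rw [h]
  exact inv_r3_0

theorem inv_r4_0 : PInv (poissonLaw ds) g l2 17 S4.rc0 := by
  have h := inv_runP (n := 15) (k := 2) S4.check_ok law_ok inv_s4
  rw [S4.run_ok0] at h
  exact h

theorem inv_r4_1 : PInv (poissonLaw ds) g l2 19 S4.rc1 := by
  have h := inv_runP (n := 17) (k := 2) S4.check_ok law_ok inv_r4_0
  rw [S4.run_ok1] at h
  exact h

theorem inv_r4_2 : PInv (poissonLaw ds) g l2 21 S4.rc2 := by
  have h := inv_runP (n := 19) (k := 2) S4.check_ok law_ok inv_r4_1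
  rw [S4.run_ok2] at h
  exact h

theorem inv_r4_3 : PInv (poissonLaw ds) g l2 23 S4.rc3 := by
  have h := inv_runP (n := 21) (k := 2) S4.check_ok law_ok inv_r4_2
  rw [S4.run_ok3] at h
  exact h

theorem inv_r4_4 : PInv (poissonLaw ds) g l2 25 S4.rc4 := by
  have h := inv_runP (n := 23) (k := 2) S4.check_ok law_ok inv_r4_3
  rw [S4.run_ok4] at h
  exact h

theorem inv_r4_5 : PInv (poissonLaw ds) g l2 27 S4.rc5 := by
  have h := inv_runP (n := 25) (k := 2) S4.check_ok law_ok inv_r4_4
  rw [S4.run_ok5] at h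
  exact h

theorem inv_r4_6 : PInv (poissonLaw ds) g l2 29 S4.rc6 := by
  have h := inv_runP (n := 27) (k := 2) S4.check_ok law_ok inv_r4_5
  rw [S4.run_ok6] at h
  exact h

theorem inv_r4_7 : PInv (poissonLaw ds) g l2 31 S4.rc7 := by
  have h := inv_runP (n := 29) (k := 2) S4.check_ok law_ok inv_r4_6
  rw [S4.run_ok7] at h
  exact h

theorem inv_s5 : PInv (poissonLaw ds) g l2 31 S5.cp0 := by
  have h : S5.cp0 = S4.rc7 := by
    decide +kernel
  rw [h]
  exact inv_r4_7

theorem inv_r5_0 : PInv (poissonLaw ds) g l3 32 S5.rc0 := by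
  have h := inv_run1P (n := 31) S5.check_ok law_ok inv_s5
  rw [S5.run_ok0] at h
  exact h

theorem inv_s6 : PInv (poissonLaw ds) g l3 32 S6.cp0 := by
  have h : S6.cp0 = S5.rc0 := by
    decide +kernel
  rw [h]
  exact inv_r5_0

theorem inv_r6_0 : PInv (poissonLaw ds) g l3 34 S6.rc0 := by
  have h := inv_runP (n := 32) (k := 2) S6.check_ok law_ok inv_s6
  rw [S6.run_ok0] at h
  exact h

theorem inv_r6_1 : PInv (poissonLaw ds) g l3 36 S6.rc1 := by
  have h := inv_runP (n := 34) (k := 2) S6.check_ok law_ok inv_r6_0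
  rw [S6.run_ok1] at h
  exact h

theorem inv_r6_2 : PInv (poissonLaw ds) g l3 38 S6.rc2 := by
  have h := inv_runP (n := 36) (k := 2) S6.check_ok law_ok inv_r6_1
  rw [S6.run_ok2] at h
  exact h

theorem inv_r6_3 : PInv (poissonLaw ds) g l3 40 S6.rc3 := by
  have h := inv_runP (n := 38) (k := 2) S6.check_ok law_ok inv_r6_2
  rw [S6.run_ok3] at h
  exact h

theorem inv_r6_4 : PInv (poissonLaw ds) g l3 42 S6.rc4 := by
  have h := inv_runP (n := 40) (k := 2) S6.check_ok law_ok inv_r6_3
  rw [S6.run_ok4] at h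
  exact h

theorem inv_r6_5 : PInv (poissonLaw ds) g l3 44 S6.rc5 := by
  have h := inv_runP (n := 42) (k := 2) S6.check_ok law_ok inv_r6_4
  rw [S6.run_ok5] at h
  exact h

theorem inv_r6_6 : PInv (poissonLaw ds) g l3 46 S6.rc6 := by
  have h := inv_runP (n := 44) (k := 2) S6.check_ok law_ok inv_r6_5
  rw [S6.run_ok6] at h
  exact h

theorem inv_r6_7 : PInv (poissonLaw ds) g l3 48 S6.rc7 := by
  have h := inv_runP (n := 46) (k := 2) S6.check_ok law_ok inv_r6_6
  rw [S6.run_ok7] at h
  exact h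

theorem inv_r6_8 : PInv (poissonLaw ds) g l3 50 S6.rc8 := by
  have h := inv_runP (n := 48) (k := 2) S6.check_ok law_ok inv_r6_7
  rw [S6.run_ok8] at h
  exact h

theorem inv_r6_9 : PInv (poissonLaw ds) g l3 52 S6.rc9 := by
  have h := inv_runP (n := 50) (k := 2) S6.check_ok law_ok inv_r6_8
  rw [S6.run_ok9] at h
  exact h

theorem inv_r6_10 : PInv (poissonLaw ds) g l3 54 S6.rc10 := by
  have h := inv_runP (n := 52) (k := 2) S6.check_ok law_ok inv_r6_9
  rw [S6.run_ok10] at h
  exact h

theorem inv_r6_11 : PInv (poissonLaw ds) g l3 56 S6.rc11 := by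
  have h := inv_runP (n := 54) (k := 2) S6.check_ok law_ok inv_r6_10
  rw [S6.run_ok11] at h
  exact h

theorem inv_r6_12 : PInv (poissonLaw ds) g l3 58 S6.rc12 := by
  have h := inv_runP (n := 56) (k := 2) S6.check_ok law_ok inv_r6_11
  rw [S6.run_ok12] at h
  exact h

theorem inv_r6_13 : PInv (poissonLaw ds) g l3 60 S6.rc13 := by
  have h := inv_runP (n := 58) (k := 2) S6.check_ok law_ok inv_r6_12
  rw [S6.run_ok13] at h
  exact h

theorem inv_r6_14 : PInv (poissonLaw ds) g l3 62 S6.rc14 := by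
  have h := inv_runP (n := 60) (k := 2) S6.check_ok law_ok inv_r6_13
  rw [S6.run_ok14] at h
  exact h

theorem inv_r6_15 : PInv (poissonLaw ds) g l3 64 S6.rc15 := by
  have h := inv_runP (n := 62) (k := 2) S6.check_ok law_ok inv_r6_14
  rw [S6.run_ok15] at h
  exact h

theorem inv_r6_16 : PInv (poissonLaw ds) g l3 66 S6.rc16 := by
  have h := inv_runP (n := 64) (k := 2) S6.check_ok law_ok inv_r6_15
  rw [S6.run_ok16] at h
  exact h

theorem inv_r6_17 : PInv (poissonLaw ds) g l3 68 S6.rc17 := by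
  have h := inv_runP (n := 66) (k := 2) S6.check_ok law_ok inv_r6_16
  rw [S6.run_ok17] at h
  exact h

theorem inv_r6_18 : PInv (poissonLaw ds) g l3 70 S6.rc18 := by
  have h := inv_runP (n := 68) (k := 2) S6.check_ok law_ok inv_r6_17
  rw [S6.run_ok18] at h
  exact h

theorem inv_r6_19 : PInv (poissonLaw ds) g l3 72 S6.rc19 := by
  have h := inv_runP (n := 70) (k := 2) S6.check_ok law_ok inv_r6_18
  rw [S6.run_ok19] at h
  exact h

theorem inv_r6_20 : PInv (poissonLaw ds) g l3 73 S6.rc20 := by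
  have h := inv_runP (n := 72) (k := 1) S6.check_ok law_ok inv_r6_19
  rw [S6.run_ok20] at h
  exact h

theorem inv_s7 : PInv (poissonLaw ds) g l3 73 S7.cp0 := by
  have h : S7.cp0 = S6.rc20 := by
    decide +kernel
  rw [h]
  exact inv_r6_20

theorem inv_r7_0 : PInv (poissonLaw ds) g l4 74 S7.rc0 := by
  have h := inv_run1P (n := 73) S7.check_ok law_ok inv_s7
  rw [S7.run_ok0] at h
  exact h

theorem inv_s8 : PInv (poissonLaw ds) g l4 74 S8.cp0 := by
  have h : S8.cp0 = S7.rc0 := by
    decide +kernel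
  rw [h]
  exact inv_r7_0

theorem inv_r8_0 : PInv (poissonLaw ds) g l4 75 S8.rc0 := by
  have h := inv_runP (n := 74) (k := 1) S8.check_ok law_ok inv_s8
  rw [S8.run_ok0] at h
  exact h

theorem inv_r8_1 : PInv (poissonLaw ds) g l4 76 S8.rc1 := by
  have h := inv_runP (n := 75) (k := 1) S8.check_ok law_ok inv_r8_0
  rw [S8.run_ok1] at h
  exact h

theorem inv_r8_2 : PInv (poissonLaw ds) g l4 77 S8.rc2 := by
  have h := inv_runP (n := 76) (k := 1) S8.check_ok law_ok inv_r8_1
  rw [S8.run_ok2] at h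
  exact h

theorem inv_r8_3 : PInv (poissonLaw ds) g l4 78 S8.rc3 := by
  have h := inv_runP (n := 77) (k := 1) S8.check_ok law_ok inv_r8_2
  rw [S8.run_ok3] at h
  exact h

theorem inv_r8_4 : PInv (poissonLaw ds) g l4 79 S8.rc4 := by
  have h := inv_runP (n := 78) (k := 1) S8.check_ok law_ok inv_r8_3
  rw [S8.run_ok4] at h
  exact h

theorem inv_r8_5 : PInv (poissonLaw ds) g l4 80 S8.rc5 := by
  have h := inv_runP (n := 79) (k := 1) S8.check_ok law_ok inv_r8_4
  rw [S8.run_ok5] at h
  exact h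

theorem inv_r8_6 : PInv (poissonLaw ds) g l4 81 S8.rc6 := by
  have h := inv_runP (n := 80) (k := 1) S8.check_ok law_ok inv_r8_5
  rw [S8.run_ok6] at h
  exact h

theorem inv_r8_7 : PInv (poissonLaw ds) g l4 82 S8.rc7 := by
  have h := inv_runP (n := 81) (k := 1) S8.check_ok law_ok inv_r8_6
  rw [S8.run_ok7] at h
  exact h

theorem inv_r8_8 : PInv (poissonLaw ds) g l4 83 S8.rc8 := by
  have h := inv_runP (n := 82) (k := 1) S8.check_ok law_ok inv_r8_7
  rw [S8.run_ok8] at h
  exact h

theorem inv_r8_9 : PInv (poissonLaw ds) g l4 84 S8.rc9 := by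
  have h := inv_runP (n := 83) (k := 1) S8.check_ok law_ok inv_r8_8
  rw [S8.run_ok9] at h
  exact h

theorem inv_r8_10 : PInv (poissonLaw ds) g l4 85 S8.rc10 := by
  have h := inv_runP (n := 84) (k := 1) S8.check_ok law_ok inv_r8_9
  rw [S8.run_ok10] at h
  exact h

theorem inv_r8_11 : PInv (poissonLaw ds) g l4 86 S8.rc11 := by
  have h := inv_runP (n := 85) (k := 1) S8.check_ok law_ok inv_r8_10
  rw [S8.run_ok11] at h
  exact h

theorem inv_r8_12 : PInv (poissonLaw ds) g l4 87 S8.rc12 := by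
  have h := inv_runP (n := 86) (k := 1) S8.check_ok law_ok inv_r8_11
  rw [S8.run_ok12] at h
  exact h

theorem inv_r8_13 : PInv (poissonLaw ds) g l4 88 S8.rc13 := by
  have h := inv_runP (n := 87) (k := 1) S8.check_ok law_ok inv_r8_12
  rw [S8.run_ok13] at h
  exact h

theorem inv_r8_14 : PInv (poissonLaw ds) g l4 89 S8.rc14 := by
  have h := inv_runP (n := 88) (k := 1) S8.check_ok law_ok inv_r8_13
  rw [S8.run_ok14] at h
  exact h

theorem inv_r8_15 : PInv (poissonLaw ds) g l4 90 S8.rc15 := by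
  have h := inv_runP (n := 89) (k := 1) S8.check_ok law_ok inv_r8_14
  rw [S8.run_ok15] at h
  exact h

theorem inv_r8_16 : PInv (poissonLaw ds) g l4 91 S8.rc16 := by
  have h := inv_runP (n := 90) (k := 1) S8.check_ok law_ok inv_r8_15
  rw [S8.run_ok16] at h
  exact h

theorem inv_r8_17 : PInv (poissonLaw ds) g l4 92 S8.rc17 := by
  have h := inv_runP (n := 91) (k := 1) S8.check_ok law_ok inv_r8_16
  rw [S8.run_ok17] at h
  exact h

theorem inv_r8_18 : PInv (poissonLaw ds) g l4 93 S8.rc18 := by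
  have h := inv_runP (n := 92) (k := 1) S8.check_ok law_ok inv_r8_17
  rw [S8.run_ok18] at h
  exact h

theorem inv_r8_19 : PInv (poissonLaw ds) g l4 94 S8.rc19 := by
  have h := inv_runP (n := 93) (k := 1) S8.check_ok law_ok inv_r8_18
  rw [S8.run_ok19] at h
  exact h

theorem inv_r8_20 : PInv (poissonLaw ds) g l4 95 S8.rc20 := by
  have h := inv_runP (n := 94) (k := 1) S8.check_ok law_ok inv_r8_19
  rw [S8.run_ok20] at h
  exact h

theorem inv_r8_21 : PInv (poissonLaw ds) g l4 96 S8.rc21 := by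
  have h := inv_runP (n := 95) (k := 1) S8.check_ok law_ok inv_r8_20
  rw [S8.run_ok21] at h
  exact h

theorem inv_r8_22 : PInv (poissonLaw ds) g l4 97 S8.rc22 := by
  have h := inv_runP (n := 96) (k := 1) S8.check_ok law_ok inv_r8_21
  rw [S8.run_ok22] at h
  exact h

theorem inv_r8_23 : PInv (poissonLaw ds) g l4 98 S8.rc23 := by
  have h := inv_runP (n := 97) (k := 1) S8.check_ok law_ok inv_r8_22
  rw [S8.run_ok23] at h
  exact h

theorem inv_r8_24 : PInv (poissonLaw ds) g l4 99 S8.rc24 := by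
  have h := inv_runP (n := 98) (k := 1) S8.check_ok law_ok inv_r8_23
  rw [S8.run_ok24] at h
  exact h

theorem inv_r8_25 : PInv (poissonLaw ds) g l4 100 S8.rc25 := by
  have h := inv_runP (n := 99) (k := 1) S8.check_ok law_ok inv_r8_24
  rw [S8.run_ok25] at h
  exact h

theorem inv_r8_26 : PInv (poissonLaw ds) g l4 101 S8.rc26 := by
  have h := inv_runP (n := 100) (k := 1) S8.check_ok law_ok inv_r8_25
  rw [S8.run_ok26] at h
  exact h

theorem inv_r8_27 : PInv (poissonLaw ds) g l4 102 S8.rc27 := by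
  have h := inv_runP (n := 101) (k := 1) S8.check_ok law_ok inv_r8_26
  rw [S8.run_ok27] at h
  exact h

theorem inv_r8_28 : PInv (poissonLaw ds) g l4 103 S8.rc28 := by
  have h := inv_runP (n := 102) (k := 1) S8.check_ok law_ok inv_r8_27
  rw [S8.run_ok28] at h
  exact h

theorem inv_r8_29 : PInv (poissonLaw ds) g l4 104 S8.rc29 := by
  have h := inv_runP (n := 103) (k := 1) S8.check_ok law_ok inv_r8_28
  rw [S8.run_ok29] at h
  exact h

theorem inv_r8_30 : PInv (poissonLaw ds) g l4 105 S8.rc30 := by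
  have h := inv_runP (n := 104) (k := 1) S8.check_ok law_ok inv_r8_29
  rw [S8.run_ok30] at h
  exact h

theorem inv_r8_31 : PInv (poissonLaw ds) g l4 106 S8.rc31 := by
  have h := inv_runP (n := 105) (k := 1) S8.check_ok law_ok inv_r8_30
  rw [S8.run_ok31] at h
  exact h

theorem inv_r8_32 : PInv (poissonLaw ds) g l4 107 S8.rc32 := by
  have h := inv_runP (n := 106) (k := 1) S8.check_ok law_ok inv_r8_31
  rw [S8.run_ok32] at h
  exact h

theorem inv_r8_33 : PInv (poissonLaw ds) g l4 108 S8.rc33 := by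
  have h := inv_runP (n := 107) (k := 1) S8.check_ok law_ok inv_r8_32
  rw [S8.run_ok33] at h
  exact h

theorem inv_r8_34 : PInv (poissonLaw ds) g l4 109 S8.rc34 := by
  have h := inv_runP (n := 108) (k := 1) S8.check_ok law_ok inv_r8_33
  rw [S8.run_ok34] at h
  exact h

theorem inv_r8_35 : PInv (poissonLaw ds) g l4 110 S8.rc35 := by
  have h := inv_runP (n := 109) (k := 1) S8.check_ok law_ok inv_r8_34
  rw [S8.run_ok35] at h
  exact h

theorem inv_r8_36 : PInv (poissonLaw ds) g l4 111 S8.rc36 := by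
  have h := inv_runP (n := 110) (k := 1) S8.check_ok law_ok inv_r8_35
  rw [S8.run_ok36] at h
  exact h

theorem inv_r8_37 : PInv (poissonLaw ds) g l4 112 S8.rc37 := by
  have h := inv_runP (n := 111) (k := 1) S8.check_ok law_ok inv_r8_36
  rw [S8.run_ok37] at h
  exact h

theorem inv_r8_38 : PInv (poissonLaw ds) g l4 113 S8.rc38 := by
  have h := inv_runP (n := 112) (k := 1) S8.check_ok law_ok inv_r8_37
  rw [S8.run_ok38] at h
  exact h

theorem inv_r8_39 : PInv (poissonLaw ds) g l4 114 S8.rc39 := by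
  have h := inv_runP (n := 113) (k := 1) S8.check_ok law_ok inv_r8_38
  rw [S8.run_ok39] at h
  exact h

theorem inv_s9 : PInv (poissonLaw ds) g l4 114 S9.cp0 := by
  have h : S9.cp0 = S8.rc39 := by
    decide +kernel
  rw [h]
  exact inv_r8_39

theorem inv_r9_0 : PInv (poissonLaw ds) g l4 115 S9.rc0 := by
  have h := inv_runP (n := 114) (k := 1) S9.check_ok law_ok inv_s9
  rw [S9.run_ok0] at h
  exact h

theorem inv_r9_1 : PInv (poissonLaw ds) g l4 116 S9.rc1 := by
  have h := inv_runP (n := 115) (k := 1) S9.check_ok law_ok inv_r9_0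
  rw [S9.run_ok1] at h
  exact h

theorem inv_r9_2 : PInv (poissonLaw ds) g l4 117 S9.rc2 := by
  have h := inv_runP (n := 116) (k := 1) S9.check_ok law_ok inv_r9_1
  rw [S9.run_ok2] at h
  exact h

theorem inv_r9_3 : PInv (poissonLaw ds) g l4 118 S9.rc3 := by
  have h := inv_runP (n := 117) (k := 1) S9.check_ok law_ok inv_r9_2
  rw [S9.run_ok3] at h
  exact h

theorem inv_r9_4 : PInv (poissonLaw ds) g l4 119 S9.rc4 := by
  have h := inv_runP (n := 118) (k := 1) S9.check_ok law_ok inv_r9_3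
  rw [S9.run_ok4] at h
  exact h

theorem inv_r9_5 : PInv (poissonLaw ds) g l4 120 S9.rc5 := by
  have h := inv_runP (n := 119) (k := 1) S9.check_ok law_ok inv_r9_4
  rw [S9.run_ok5] at h
  exact h

theorem inv_r9_6 : PInv (poissonLaw ds) g l4 121 S9.rc6 := by
  have h := inv_runP (n := 120) (k := 1) S9.check_ok law_ok inv_r9_5
  rw [S9.run_ok6] at h
  exact h

theorem inv_r9_7 : PInv (poissonLaw ds) g l4 122 S9.rc7 := by
  have h := inv_runP (n := 121) (k := 1) S9.check_ok law_ok inv_r9_6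
  rw [S9.run_ok7] at h
  exact h

theorem inv_r9_8 : PInv (poissonLaw ds) g l4 123 S9.rc8 := by
  have h := inv_runP (n := 122) (k := 1) S9.check_ok law_ok inv_r9_7
  rw [S9.run_ok8] at h
  exact h

theorem inv_r9_9 : PInv (poissonLaw ds) g l4 124 S9.rc9 := by
  have h := inv_runP (n := 123) (k := 1) S9.check_ok law_ok inv_r9_8
  rw [S9.run_ok9] at h
  exact h

theorem inv_r9_10 : PInv (poissonLaw ds) g l4 125 S9.rc10 := by
  have h := inv_runP (n := 124) (k := 1) S9.check_ok law_ok inv_r9_9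
  rw [S9.run_ok10] at h
  exact h

theorem inv_r9_11 : PInv (poissonLaw ds) g l4 126 S9.rc11 := by
  have h := inv_runP (n := 125) (k := 1) S9.check_ok law_ok inv_r9_10
  rw [S9.run_ok11] at h
  exact h

theorem inv_r9_12 : PInv (poissonLaw ds) g l4 127 S9.rc12 := by
  have h := inv_runP (n := 126) (k := 1) S9.check_ok law_ok inv_r9_11
  rw [S9.run_ok12] at h
  exact h

theorem inv_r9_13 : PInv (poissonLaw ds) g l4 128 S9.rc13 := by
  have h := inv_runP (n := 127) (k := 1) S9.check_ok law_ok inv_r9_12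
  rw [S9.run_ok13] at h
  exact h

theorem inv_r9_14 : PInv (poissonLaw ds) g l4 129 S9.rc14 := by
  have h := inv_runP (n := 128) (k := 1) S9.check_ok law_ok inv_r9_13
  rw [S9.run_ok14] at h
  exact h

theorem inv_r9_15 : PInv (poissonLaw ds) g l4 130 S9.rc15 := by
  have h := inv_runP (n := 129) (k := 1) S9.check_ok law_ok inv_r9_14
  rw [S9.run_ok15] at h
  exact h

theorem inv_r9_16 : PInv (poissonLaw ds) g l4 131 S9.rc16 := by
  have h := inv_runP (n := 130) (k := 1) S9.check_ok law_ok inv_r9_15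
  rw [S9.run_ok16] at h
  exact h

theorem inv_r9_17 : PInv (poissonLaw ds) g l4 132 S9.rc17 := by
  have h := inv_runP (n := 131) (k := 1) S9.check_ok law_ok inv_r9_16
  rw [S9.run_ok17] at h
  exact h

theorem inv_r9_18 : PInv (poissonLaw ds) g l4 133 S9.rc18 := by
  have h := inv_runP (n := 132) (k := 1) S9.check_ok law_ok inv_r9_17
  rw [S9.run_ok18] at h
  exact h

theorem inv_r9_19 : PInv (poissonLaw ds) g l4 134 S9.rc19 := by
  have h := inv_runP (n := 133) (k := 1) S9.check_ok law_ok inv_r9_18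
  rw [S9.run_ok19] at h
  exact h

theorem inv_r9_20 : PInv (poissonLaw ds) g l4 135 S9.rc20 := by
  have h := inv_runP (n := 134) (k := 1) S9.check_ok law_ok inv_r9_19
  rw [S9.run_ok20] at h
  exact h

theorem inv_r9_21 : PInv (poissonLaw ds) g l4 136 S9.rc21 := by
  have h := inv_runP (n := 135) (k := 1) S9.check_ok law_ok inv_r9_20
  rw [S9.run_ok21] at h
  exact h

theorem inv_r9_22 : PInv (poissonLaw ds) g l4 137 S9.rc22 := by
  have h := inv_runP (n := 136) (k := 1) S9.check_ok law_ok inv_r9_21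
  rw [S9.run_ok22] at h
  exact h

theorem inv_r9_23 : PInv (poissonLaw ds) g l4 138 S9.rc23 := by
  have h := inv_runP (n := 137) (k := 1) S9.check_ok law_ok inv_r9_22
  rw [S9.run_ok23] at h
  exact h

theorem inv_r9_24 : PInv (poissonLaw ds) g l4 139 S9.rc24 := by
  have h := inv_runP (n := 138) (k := 1) S9.check_ok law_ok inv_r9_23
  rw [S9.run_ok24] at h
  exact h

theorem inv_r9_25 : PInv (poissonLaw ds) g l4 140 S9.rc25 := by
  have h := inv_runP (n := 139) (k := 1) S9.check_ok law_ok inv_r9_24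
  rw [S9.run_ok25] at h
  exact h

theorem inv_r9_26 : PInv (poissonLaw ds) g l4 141 S9.rc26 := by
  have h := inv_runP (n := 140) (k := 1) S9.check_ok law_ok inv_r9_25
  rw [S9.run_ok26] at h
  exact h

theorem inv_r9_27 : PInv (poissonLaw ds) g l4 142 S9.rc27 := by
  have h := inv_runP (n := 141) (k := 1) S9.check_ok law_ok inv_r9_26
  rw [S9.run_ok27] at h
  exact h

theorem inv_r9_28 : PInv (poissonLaw ds) g l4 143 S9.rc28 := by
  have h := inv_runP (n := 142) (k := 1) S9.check_ok law_ok inv_r9_27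
  rw [S9.run_ok28] at h
  exact h

theorem inv_r9_29 : PInv (poissonLaw ds) g l4 144 S9.rc29 := by
  have h := inv_runP (n := 143) (k := 1) S9.check_ok law_ok inv_r9_28
  rw [S9.run_ok29] at h
  exact h

theorem inv_r9_30 : PInv (poissonLaw ds) g l4 145 S9.rc30 := by
  have h := inv_runP (n := 144) (k := 1) S9.check_ok law_ok inv_r9_29
  rw [S9.run_ok30] at h
  exact h

theorem inv_r9_31 : PInv (poissonLaw ds) g l4 146 S9.rc31 := by
  have h := inv_runP (n := 145) (k := 1) S9.check_ok law_ok inv_r9_30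
  rw [S9.run_ok31] at h
  exact h

theorem inv_r9_32 : PInv (poissonLaw ds) g l4 147 S9.rc32 := by
  have h := inv_runP (n := 146) (k := 1) S9.check_ok law_ok inv_r9_31
  rw [S9.run_ok32] at h
  exact h

theorem inv_r9_33 : PInv (poissonLaw ds) g l4 148 S9.rc33 := by
  have h := inv_runP (n := 147) (k := 1) S9.check_ok law_ok inv_r9_32
  rw [S9.run_ok33] at h
  exact h

theorem inv_r9_34 : PInv (poissonLaw ds) g l4 149 S9.rc34 := by
  have h := inv_runP (n := 148) (k := 1) S9.check_ok law_ok inv_r9_33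
  rw [S9.run_ok34] at h
  exact h

theorem inv_r9_35 : PInv (poissonLaw ds) g l4 150 S9.rc35 := by
  have h := inv_runP (n := 149) (k := 1) S9.check_ok law_ok inv_r9_34
  rw [S9.run_ok35] at h
  exact h

theorem inv_r9_36 : PInv (poissonLaw ds) g l4 151 S9.rc36 := by
  have h := inv_runP (n := 150) (k := 1) S9.check_ok law_ok inv_r9_35
  rw [S9.run_ok36] at h
  exact h

theorem inv_r9_37 : PInv (poissonLaw ds) g l4 152 S9.rc37 := by
  have h := inv_runP (n := 151) (k := 1) S9.check_ok law_ok inv_r9_36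
  rw [S9.run_ok37] at h
  exact h

theorem inv_r9_38 : PInv (poissonLaw ds) g l4 153 S9.rc38 := by
  have h := inv_runP (n := 152) (k := 1) S9.check_ok law_ok inv_r9_37
  rw [S9.run_ok38] at h
  exact h

theorem inv_r9_39 : PInv (poissonLaw ds) g l4 154 S9.rc39 := by
  have h := inv_runP (n := 153) (k := 1) S9.check_ok law_ok inv_r9_38
  rw [S9.run_ok39] at h
  exact h

theorem inv_r9_40 : PInv (poissonLaw ds) g l4 155 S9.rc40 := by
  have h := inv_runP (n := 154) (k := 1) S9.check_ok law_ok inv_r9_39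
  rw [S9.run_ok40] at h
  exact h

theorem inv_r9_41 : PInv (poissonLaw ds) g l4 156 S9.rc41 := by
  have h := inv_runP (n := 155) (k := 1) S9.check_ok law_ok inv_r9_40
  rw [S9.run_ok41] at h
  exact h

theorem inv_r9_42 : PInv (poissonLaw ds) g l4 157 S9.rc42 := by
  have h := inv_runP (n := 156) (k := 1) S9.check_ok law_ok inv_r9_41
  rw [S9.run_ok42] at h
  exact h

theorem inv_r9_43 : PInv (poissonLaw ds) g l4 158 S9.rc43 := by
  have h := inv_runP (n := 157) (k := 1) S9.check_ok law_ok inv_r9_42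
  rw [S9.run_ok43] at h
  exact h

theorem inv_r9_44 : PInv (poissonLaw ds) g l4 159 S9.rc44 := by
  have h := inv_runP (n := 158) (k := 1) S9.check_ok law_ok inv_r9_43
  rw [S9.run_ok44] at h
  exact h

theorem inv_r9_45 : PInv (poissonLaw ds) g l4 160 S9.rc45 := by
  have h := inv_runP (n := 159) (k := 1) S9.check_ok law_ok inv_r9_44
  rw [S9.run_ok45] at h
  exact h

theorem inv_r9_46 : PInv (poissonLaw ds) g l4 161 S9.rc46 := by
  have h := inv_runP (n := 160) (k := 1) S9.check_ok law_ok inv_r9_45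
  rw [S9.run_ok46] at h
  exact h

theorem inv_r9_47 : PInv (poissonLaw ds) g l4 162 S9.rc47 := by
  have h := inv_runP (n := 161) (k := 1) S9.check_ok law_ok inv_r9_46
  rw [S9.run_ok47] at h
  exact h

theorem inv_r9_48 : PInv (poissonLaw ds) g l4 163 S9.rc48 := by
  have h := inv_runP (n := 162) (k := 1) S9.check_ok law_ok inv_r9_47
  rw [S9.run_ok48] at h
  exact h

theorem inv_r9_49 : PInv (poissonLaw ds) g l4 164 S9.rc49 := by
  have h := inv_runP (n := 163) (k := 1) S9.check_ok law_ok inv_r9_48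
  rw [S9.run_ok49] at h
  exact h

theorem inv_r9_50 : PInv (poissonLaw ds) g l4 165 S9.rc50 := by
  have h := inv_runP (n := 164) (k := 1) S9.check_ok law_ok inv_r9_49
  rw [S9.run_ok50] at h
  exact h

theorem inv_r9_51 : PInv (poissonLaw ds) g l4 166 S9.rc51 := by
  have h := inv_runP (n := 165) (k := 1) S9.check_ok law_ok inv_r9_50
  rw [S9.run_ok51] at h
  exact h

theorem inv_r9_52 : PInv (poissonLaw ds) g l4 167 S9.rc52 := by
  have h := inv_runP (n := 166) (k := 1) S9.check_ok law_ok inv_r9_51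
  rw [S9.run_ok52] at h
  exact h

theorem inv_r9_53 : PInv (poissonLaw ds) g l4 168 S9.rc53 := by
  have h := inv_runP (n := 167) (k := 1) S9.check_ok law_ok inv_r9_52
  rw [S9.run_ok53] at h
  exact h

theorem inv_r9_54 : PInv (poissonLaw ds) g l4 169 S9.rc54 := by
  have h := inv_runP (n := 168) (k := 1) S9.check_ok law_ok inv_r9_53
  rw [S9.run_ok54] at h
  exact h

theorem inv_s10 : PInv (poissonLaw ds) g l4 169 S10.cp0 := by
  have h : S10.cp0 = S9.rc54 := by
    decide +kernel
  rw [h]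
  exact inv_r9_54

theorem inv_r10_0 : PInv (poissonLaw ds) g l4 170 S10.rc0 := by
  have h := inv_runP (n := 169) (k := 1) S10.check_ok law_ok inv_s10
  rw [S10.run_ok0] at h
  exact h

theorem inv_r10_1 : PInv (poissonLaw ds) g l4 171 S10.rc1 := by
  have h := inv_runP (n := 170) (k := 1) S10.check_ok law_ok inv_r10_0
  rw [S10.run_ok1] at h
  exact h

theorem inv_r10_2 : PInv (poissonLaw ds) g l4 172 S10.rc2 := by
  have h := inv_runP (n := 171) (k := 1) S10.check_ok law_ok inv_r10_1
  rw [S10.run_ok2] at h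
  exact h

theorem inv_r10_3 : PInv (poissonLaw ds) g l4 173 S10.rc3 := by
  have h := inv_runP (n := 172) (k := 1) S10.check_ok law_ok inv_r10_2
  rw [S10.run_ok3] at h
  exact h

theorem inv_r10_4 : PInv (poissonLaw ds) g l4 174 S10.rc4 := by
  have h := inv_runP (n := 173) (k := 1) S10.check_ok law_ok inv_r10_3
  rw [S10.run_ok4] at h
  exact h

theorem inv_r10_5 : PInv (poissonLaw ds) g l4 175 S10.rc5 := by
  have h := inv_runP (n := 174) (k := 1) S10.check_ok law_ok inv_r10_4
  rw [S10.run_ok5] at h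
  exact h

theorem inv_r10_6 : PInv (poissonLaw ds) g l4 176 S10.rc6 := by
  have h := inv_runP (n := 175) (k := 1) S10.check_ok law_ok inv_r10_5
  rw [S10.run_ok6] at h
  exact h

theorem inv_r10_7 : PInv (poissonLaw ds) g l4 177 S10.rc7 := by
  have h := inv_runP (n := 176) (k := 1) S10.check_ok law_ok inv_r10_6
  rw [S10.run_ok7] at h
  exact h

theorem inv_r10_8 : PInv (poissonLaw ds) g l4 178 S10.rc8 := by
  have h := inv_runP (n := 177) (k := 1) S10.check_ok law_ok inv_r10_7
  rw [S10.run_ok8] at h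
  exact h

theorem inv_r10_9 : PInv (poissonLaw ds) g l4 179 S10.rc9 := by
  have h := inv_runP (n := 178) (k := 1) S10.check_ok law_ok inv_r10_8
  rw [S10.run_ok9] at h
  exact h

theorem inv_r10_10 : PInv (poissonLaw ds) g l4 180 S10.rc10 := by
  have h := inv_runP (n := 179) (k := 1) S10.check_ok law_ok inv_r10_9
  rw [S10.run_ok10] at h
  exact h

theorem inv_r10_11 : PInv (poissonLaw ds) g l4 181 S10.rc11 := by
  have h := inv_runP (n := 180) (k := 1) S10.check_ok law_ok inv_r10_10
  rw [S10.run_ok11] at h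
  exact h

theorem inv_r10_12 : PInv (poissonLaw ds) g l4 182 S10.rc12 := by
  have h := inv_runP (n := 181) (k := 1) S10.check_ok law_ok inv_r10_11
  rw [S10.run_ok12] at h
  exact h

theorem inv_r10_13 : PInv (poissonLaw ds) g l4 183 S10.rc13 := by
  have h := inv_runP (n := 182) (k := 1) S10.check_ok law_ok inv_r10_12
  rw [S10.run_ok13] at h
  exact h

theorem inv_r10_14 : PInv (poissonLaw ds) g l4 184 S10.rc14 := by
  have h := inv_runP (n := 183) (k := 1) S10.check_ok law_ok inv_r10_13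
  rw [S10.run_ok14] at h
  exact h

theorem inv_r10_15 : PInv (poissonLaw ds) g l4 185 S10.rc15 := by
  have h := inv_runP (n := 184) (k := 1) S10.check_ok law_ok inv_r10_14
  rw [S10.run_ok15] at h
  exact h

theorem inv_r10_16 : PInv (poissonLaw ds) g l4 186 S10.rc16 := by
  have h := inv_runP (n := 185) (k := 1) S10.check_ok law_ok inv_r10_15
  rw [S10.run_ok16] at h
  exact h

theorem inv_r10_17 : PInv (poissonLaw ds) g l4 187 S10.rc17 := by
  have h := inv_runP (n := 186) (k := 1) S10.check_ok law_ok inv_r10_16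
  rw [S10.run_ok17] at h
  exact h

theorem inv_r10_18 : PInv (poissonLaw ds) g l4 188 S10.rc18 := by
  have h := inv_runP (n := 187) (k := 1) S10.check_ok law_ok inv_r10_17
  rw [S10.run_ok18] at h
  exact h

theorem inv_r10_19 : PInv (poissonLaw ds) g l4 189 S10.rc19 := by
  have h := inv_runP (n := 188) (k := 1) S10.check_ok law_ok inv_r10_18
  rw [S10.run_ok19] at h
  exact h

theorem inv_r10_20 : PInv (poissonLaw ds) g l4 190 S10.rc20 := by
  have h := inv_runP (n := 189) (k := 1) S10.check_ok law_ok inv_r10_19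
  rw [S10.run_ok20] at h
  exact h

theorem inv_r10_21 : PInv (poissonLaw ds) g l4 191 S10.rc21 := by
  have h := inv_runP (n := 190) (k := 1) S10.check_ok law_ok inv_r10_20
  rw [S10.run_ok21] at h
  exact h

theorem inv_r10_22 : PInv (poissonLaw ds) g l4 192 S10.rc22 := by
  have h := inv_runP (n := 191) (k := 1) S10.check_ok law_ok inv_r10_21
  rw [S10.run_ok22] at h
  exact h

theorem inv_r10_23 : PInv (poissonLaw ds) g l4 193 S10.rc23 := by
  have h := inv_runP (n := 192) (k := 1) S10.check_ok law_ok inv_r10_22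
  rw [S10.run_ok23] at h
  exact h

theorem inv_r10_24 : PInv (poissonLaw ds) g l4 194 S10.rc24 := by
  have h := inv_runP (n := 193) (k := 1) S10.check_ok law_ok inv_r10_23
  rw [S10.run_ok24] at h
  exact h

theorem inv_r10_25 : PInv (poissonLaw ds) g l4 195 S10.rc25 := by
  have h := inv_runP (n := 194) (k := 1) S10.check_ok law_ok inv_r10_24
  rw [S10.run_ok25] at h
  exact h

theorem inv_r10_26 : PInv (poissonLaw ds) g l4 196 S10.rc26 := by
  have h := inv_runP (n := 195) (k := 1) S10.check_ok law_ok inv_r10_25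
  rw [S10.run_ok26] at h
  exact h

theorem inv_r10_27 : PInv (poissonLaw ds) g l4 197 S10.rc27 := by
  have h := inv_runP (n := 196) (k := 1) S10.check_ok law_ok inv_r10_26
  rw [S10.run_ok27] at h
  exact h

theorem inv_r10_28 : PInv (poissonLaw ds) g l4 198 S10.rc28 := by
  have h := inv_runP (n := 197) (k := 1) S10.check_ok law_ok inv_r10_27
  rw [S10.run_ok28] at h
  exact h

theorem inv_r10_29 : PInv (poissonLaw ds) g l4 199 S10.rc29 := by
  have h := inv_runP (n := 198) (k := 1) S10.check_ok law_ok inv_r10_28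
  rw [S10.run_ok29] at h
  exact h

theorem inv_r10_30 : PInv (poissonLaw ds) g l4 200 S10.rc30 := by
  have h := inv_runP (n := 199) (k := 1) S10.check_ok law_ok inv_r10_29
  rw [S10.run_ok30] at h
  exact h

theorem inv_r10_31 : PInv (poissonLaw ds) g l4 201 S10.rc31 := by
  have h := inv_runP (n := 200) (k := 1) S10.check_ok law_ok inv_r10_30
  rw [S10.run_ok31] at h
  exact h

theorem inv_r10_32 : PInv (poissonLaw ds) g l4 202 S10.rc32 := by
  have h := inv_runP (n := 201) (k := 1) S10.check_ok law_ok inv_r10_31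
  rw [S10.run_ok32] at h
  exact h

theorem inv_r10_33 : PInv (poissonLaw ds) g l4 203 S10.rc33 := by
  have h := inv_runP (n := 202) (k := 1) S10.check_ok law_ok inv_r10_32
  rw [S10.run_ok33] at h
  exact h

theorem inv_r10_34 : PInv (poissonLaw ds) g l4 204 S10.rc34 := by
  have h := inv_runP (n := 203) (k := 1) S10.check_ok law_ok inv_r10_33
  rw [S10.run_ok34] at h
  exact h

theorem inv_r10_35 : PInv (poissonLaw ds) g l4 205 S10.rc35 := by
  have h := inv_runP (n := 204) (k := 1) S10.check_ok law_ok inv_r10_34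
  rw [S10.run_ok35] at h
  exact h

theorem inv_r10_36 : PInv (poissonLaw ds) g l4 206 S10.rc36 := by
  have h := inv_runP (n := 205) (k := 1) S10.check_ok law_ok inv_r10_35
  rw [S10.run_ok36] at h
  exact h

theorem inv_r10_37 : PInv (poissonLaw ds) g l4 207 S10.rc37 := by
  have h := inv_runP (n := 206) (k := 1) S10.check_ok law_ok inv_r10_36
  rw [S10.run_ok37] at h
  exact h

theorem inv_r10_38 : PInv (poissonLaw ds) g l4 208 S10.rc38 := by
  have h := inv_runP (n := 207) (k := 1) S10.check_ok law_ok inv_r10_37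
  rw [S10.run_ok38] at h
  exact h

theorem inv_r10_39 : PInv (poissonLaw ds) g l4 209 S10.rc39 := by
  have h := inv_runP (n := 208) (k := 1) S10.check_ok law_ok inv_r10_38
  rw [S10.run_ok39] at h
  exact h

theorem inv_r10_40 : PInv (poissonLaw ds) g l4 210 S10.rc40 := by
  have h := inv_runP (n := 209) (k := 1) S10.check_ok law_ok inv_r10_39
  rw [S10.run_ok40] at h
  exact h

theorem inv_r10_41 : PInv (poissonLaw ds) g l4 211 S10.rc41 := by
  have h := inv_runP (n := 210) (k := 1) S10.check_ok law_ok inv_r10_40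
  rw [S10.run_ok41] at h
  exact h

theorem inv_r10_42 : PInv (poissonLaw ds) g l4 212 S10.rc42 := by
  have h := inv_runP (n := 211) (k := 1) S10.check_ok law_ok inv_r10_41
  rw [S10.run_ok42] at h
  exact h

theorem inv_r10_43 : PInv (poissonLaw ds) g l4 213 S10.rc43 := by
  have h := inv_runP (n := 212) (k := 1) S10.check_ok law_ok inv_r10_42
  rw [S10.run_ok43] at h
  exact h

theorem inv_r10_44 : PInv (poissonLaw ds) g l4 214 S10.rc44 := by
  have h := inv_runP (n := 213) (k := 1) S10.check_ok law_ok inv_r10_43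
  rw [S10.run_ok44] at h
  exact h

theorem inv_r10_45 : PInv (poissonLaw ds) g l4 215 S10.rc45 := by
  have h := inv_runP (n := 214) (k := 1) S10.check_ok law_ok inv_r10_44
  rw [S10.run_ok45] at h
  exact h

theorem inv_r10_46 : PInv (poissonLaw ds) g l4 216 S10.rc46 := by
  have h := inv_runP (n := 215) (k := 1) S10.check_ok law_ok inv_r10_45
  rw [S10.run_ok46] at h
  exact h

theorem inv_r10_47 : PInv (poissonLaw ds) g l4 217 S10.rc47 := by
  have h := inv_runP (n := 216) (k := 1) S10.check_ok law_ok inv_r10_46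
  rw [S10.run_ok47] at h
  exact h

theorem inv_r10_48 : PInv (poissonLaw ds) g l4 218 S10.rc48 := by
  have h := inv_runP (n := 217) (k := 1) S10.check_ok law_ok inv_r10_47
  rw [S10.run_ok48] at h
  exact h

theorem inv_r10_49 : PInv (poissonLaw ds) g l4 219 S10.rc49 := by
  have h := inv_runP (n := 218) (k := 1) S10.check_ok law_ok inv_r10_48
  rw [S10.run_ok49] at h
  exact h

theorem inv_r10_50 : PInv (poissonLaw ds) g l4 220 S10.rc50 := by
  have h := inv_runP (n := 219) (k := 1) S10.check_ok law_ok inv_r10_49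
  rw [S10.run_ok50] at h
  exact h

theorem inv_r10_51 : PInv (poissonLaw ds) g l4 221 S10.rc51 := by
  have h := inv_runP (n := 220) (k := 1) S10.check_ok law_ok inv_r10_50
  rw [S10.run_ok51] at h
  exact h

theorem inv_r10_52 : PInv (poissonLaw ds) g l4 222 S10.rc52 := by
  have h := inv_runP (n := 221) (k := 1) S10.check_ok law_ok inv_r10_51
  rw [S10.run_ok52] at h
  exact h

theorem inv_r10_53 : PInv (poissonLaw ds) g l4 223 S10.rc53 := by
  have h := inv_runP (n := 222) (k := 1) S10.check_ok law_ok inv_r10_52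
  rw [S10.run_ok53] at h
  exact h

theorem inv_r10_54 : PInv (poissonLaw ds) g l4 224 S10.rc54 := by
  have h := inv_runP (n := 223) (k := 1) S10.check_ok law_ok inv_r10_53
  rw [S10.run_ok54] at h
  exact h

theorem inv_r10_55 : PInv (poissonLaw ds) g l4 225 S10.rc55 := by
  have h := inv_runP (n := 224) (k := 1) S10.check_ok law_ok inv_r10_54
  rw [S10.run_ok55] at h
  exact h

theorem inv_r10_56 : PInv (poissonLaw ds) g l4 226 S10.rc56 := by
  have h := inv_runP (n := 225) (k := 1) S10.check_ok law_ok inv_r10_55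
  rw [S10.run_ok56] at h
  exact h

theorem inv_r10_57 : PInv (poissonLaw ds) g l4 227 S10.rc57 := by
  have h := inv_runP (n := 226) (k := 1) S10.check_ok law_ok inv_r10_56
  rw [S10.run_ok57] at h
  exact h

theorem inv_r10_58 : PInv (poissonLaw ds) g l4 228 S10.rc58 := by
  have h := inv_runP (n := 227) (k := 1) S10.check_ok law_ok inv_r10_57
  rw [S10.run_ok58] at h
  exact h

theorem inv_r10_59 : PInv (poissonLaw ds) g l4 229 S10.rc59 := by
  have h := inv_runP (n := 228) (k := 1) S10.check_ok law_ok inv_r10_58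
  rw [S10.run_ok59] at h
  exact h

theorem inv_e : PInv (poissonLaw ds) g l4 229 S10.cp1 := by
  have h : S10.cp1 = S10.rc59 := by
    decide +kernel
  rw [h]
  exact inv_r10_59

theorem hand : ∃ A : FF, A.Good ∧ (∀ G, Sublin G → Symm G → PhiE (gwEx (poissonLaw ds) (lamOf g) (229 + 1)) G ≤ val A.F G)
      ∧ InClass ((hp.kapN : ℝ) / hp.kapD) ((hp.bpN : ℝ) / hp.bpD) ((hp.bmN : ℝ) / hp.bmD) (famEx A.F)
          ((hp.Mn : ℝ) / hp.Md) ∧ famEx A.F I2cb ≤ ((1 : ℕ) : ℝ) / ((100 : ℕ) : ℝ) :=
  handoffP S10.check_ok law_ok inv_e (by decide +kernel) (by decide +kernel) (by decide +kernel)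
    (by decide +kernel) (by decide +kernel) S10.hand_ok

/-- what the chain gives -/
theorem box : BoxOK (40363 / 10000) (997 / 2000) (39 / 2500) (21 / 2) (78 / 25) (237 / 100) (1 / 100) := by
  obtain ⟨A, h1, h2, h3, h4⟩ := hand
  have el : lamOf g = -((997 : ℝ) / 2000) := by
    have e : lamOf g = -((g.ln : ℝ) / g.ld) := rfl
    rw [e]
    norm_num [g]
  have e1 : ((hp.kapN : ℝ) / hp.kapD) = 21 / 2 := by norm_num [hp]
  have e2 : ((hp.bpN : ℝ) / hp.bpD) = 78 / 25 := by norm_num [hp]
  have e3 : ((hp.bmN : ℝ) / hp.bmD) = 237 / 100 := by norm_num [hp]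
  have e4 : ((hp.Mn : ℝ) / hp.Md) = 39 / 2500 := by norm_num [hp]
  have e5 : (((1 : ℕ) : ℝ) / ((100 : ℕ) : ℝ)) = 1 / 100 := by norm_num
  rw [el] at h2
  rw [e1, e2, e3, e4] at h3
  rw [e5] at h4
  exact ⟨229 + 1, A, h1, h2, h3, h4⟩

end Vale.Agent.Lib.P154.PChain.BB
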