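import Vale.Agent.Lib.P154.PChain.BB.R10_5

set_option linter.all false

namespace Vale.Agent.Lib.P154.PChain.BB.S10

open Vale.Agent.Lib.P154.Chain

set_option maxRecDepth 10000000 in
def run_ok48 : runP g l4 (vPacked vl) wp Tp Tx Te Tz 1 rc47 = rc48 := by
  decide +kernel

set_option maxRecDepth 10000000 in
def run_ok49 : runP g l4 (vPacked vl) wp Tp Tx Te Tz 1 rc48 = rc49 := by
  decide +kernel

set_option maxRecDepth 10000000 in
def run_ok50 : runP g l4 (vPacked vl) wp Tp Tx Te Tz 1 rc49 = rc50 := by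
  decide +kernel

set_option maxRecDepth 10000000 in
def run_ok51 : runP g l4 (vPacked vl) wp Tp Tx Te Tz 1 rc50 = rc51 := by
  decide +kernel

set_option maxRecDepth 10000000 in
def run_ok52 : runP g l4 (vPacked vl) wp Tp Tx Te Tz 1 rc51 = rc52 := by
  decide +kernel

set_option maxRecDepth 10000000 in
def run_ok53 : runP g l4 (vPacked vl) wp Tp Tx Te Tz 1 rc52 = rc53 := by
  decide +kernel

set_option maxRecDepth 10000000 in
def run_ok54 : runP g l4 (vPacked vl) wp Tp Tx Te Tz 1 rc53 = rc54 := by
  decide +kernel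

set_option maxRecDepth 10000000 in
def run_ok55 : runP g l4 (vPacked vl) wp Tp Tx Te Tz 1 rc54 = rc55 := by
  decide +kernel

end Vale.Agent.Lib.P154.PChain.BB.S10
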