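import Vale.Agent.Lib.P154.PChain.BB.R10_6

set_option linter.all false

namespace Vale.Agent.Lib.P154.PChain.BB.S10

open Vale.Agent.Lib.P154.Chain

set_option maxRecDepth 10000000 in
def run_ok56 : runP g l4 (vPacked vl) wp Tp Tx Te Tz 1 rc55 = rc56 := by
  decide +kernel

set_option maxRecDepth 10000000 in
def run_ok57 : runP g l4 (vPacked vl) wp Tp Tx Te Tz 1 rc56 = rc57 := by
  decide +kernel

set_option maxRecDepth 10000000 in
def run_ok58 : runP g l4 (vPacked vl) wp Tp Tx Te Tz 1 rc57 = rc58 := by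
  decide +kernel

set_option maxRecDepth 10000000 in
def run_ok59 : runP g l4 (vPacked vl) wp Tp Tx Te Tz 1 rc58 = rc59 := by
  decide +kernel

end Vale.Agent.Lib.P154.PChain.BB.S10
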