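import Vale.Agent.Lib.P154.PChain.BB.R6_1

set_option linter.all false

namespace Vale.Agent.Lib.P154.PChain.BB.S6

open Vale.Agent.Lib.P154.Chain

set_option maxRecDepth 10000000 in
def run_ok16 : runP g l3 (vPacked vl) wp Tp Tx Te Tz 2 rc15 = rc16 := by
  decide +kernel

set_option maxRecDepth 10000000 in
def run_ok17 : runP g l3 (vPacked vl) wp Tp Tx Te Tz 2 rc16 = rc17 := by
  decide +kernel

set_option maxRecDepth 10000000 in
def run_ok18 : runP g l3 (vPacked vl) wp Tp Tx Te Tz 2 rc17 = rc18 := by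
  decide +kernel

set_option maxRecDepth 10000000 in
def run_ok19 : runP g l3 (vPacked vl) wp Tp Tx Te Tz 2 rc18 = rc19 := by
  decide +kernel

set_option maxRecDepth 10000000 in
def run_ok20 : runP g l3 (vPacked vl) wp Tp Tx Te Tz 1 rc19 = rc20 := by
  decide +kernel

end Vale.Agent.Lib.P154.PChain.BB.S6
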